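import Vale.Agent.P235.H732.Monitors
import Vale.Agent.P235.H263.Target

/-! Monitors for the elimination form of `H263`. -/

namespace Vale.Agent.P235.H732

open Finset Vale.Agent.P235.H263

variable {n k : ℕ} {A : Fin n → Finset (Fin n)} {d : Fin n → Fin n → ℝ}

/-- The parent as an option. -/
noncomputable def parO (A : Fin n → Finset (Fin n)) (i : Fin n) : Option (Fin n) := by
  classical exact if (A i).Nonempty then some (par A i) else none

theorem parO_some {i s : Fin n} : parO A i = some s ↔ (A i).Nonempty ∧ par A i = s := by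
  unfold parO
  split_ifs with h
  · simp [h]
  · simp [h]

theorem parO_none {i : Fin n} : parO A i = none ↔ A i = ∅ := by
  unfold parO
  split_ifs with h
  · simp [h.ne_empty]
  · simp [Finset.not_nonempty_iff_eq_empty.1 h]

theorem sub_of_anc {s t : Fin n} (h : Anc (parO A) s t) : Sub A s t := by
  induction h with
  | refl => exact Sub.refl _
  | step h1 _ ih =>
    rw [parO_some] at h1
    obtain ⟨_, rfl⟩ := h1
    exact Sub.step ih

/-- The rooted bags of an elimination form. -/
noncomputable def toBags (hA : IsElim k A) (hS : IsSep A d) : Bags (Fin n) (Fin n) d k where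
  par := parO A
  par_lt := by
    intro t s h
    rw [parO_some] at h
    obtain ⟨h1, rfl⟩ := h
    exact hA.lt _ _ (par_mem h1)
  A := A
  B := fun i => insert i (A i)
  A_sub := fun t => Finset.subset_insert _ _
  A_par := by
    intro t s h
    rw [parO_some] at h
    obtain ⟨_, rfl⟩ := h
    exact hA.sub_par t
  A_root := fun h => parO_none.1 h
  cardB := fun t => (Finset.card_insert_le _ _).trans (Nat.succ_le_succ (hA.card t))
  cardA := hA.card
  sep := by
    intro b s t hbs hne hst p hp q hq
    have hbs' : b < s := by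
      refine lt_of_le_of_ne (hA.sub_le (sub_of_anc hbs)) hne
    have hst' := sub_of_anc hst
    have hq' : ¬ Sub A s q := by
      intro h
      have h1 := hA.sub_le h
      rcases Finset.mem_insert.1 hq with h2 | h2
      · rw [h2] at h1; exact absurd (h1.trans_lt hbs') (lt_irrefl _)
      · have h3 := hA.lt b q h2
        exact absurd ((h1.trans_lt h3).trans hbs') (lt_irrefl _)
    have hp' : Sub A s p ∨ p ∈ A s := by
      rcases Finset.mem_insert.1 hp with h2 | h2
      · rw [h2]; exact Or.inl hst'
      · exact hA.adh hst' h2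
    rcases hp' with h | h
    · obtain ⟨a, ha, h1⟩ := hS.sep s p q h hq'
      exact ⟨a, ha, h1.symm.le⟩
    · exact ⟨p, h, by rw [hS.self, zero_add]⟩

theorem isDist (hS : IsSep A d) : Bags.IsDist d := ⟨hS.self, hS.symm, hS.tri⟩

/-- Monitors in set form for the elimination form: labels `Fin n × ℤ × Fin n`. -/
theorem monitors_elim (hA : IsElim k A) (hS : IsSep A d) :
    ∃ (alive : Fin n → Finset (Fin n × ℤ × Fin n)) (η : Fin n × ℤ × Fin n → Fin n → ℝ),
      (∀ t, (alive t).card ≤ Bags.LL k) ∧
      (∀ i p q, |η i p - η i q| ≤ d p q) ∧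
      (∀ t, ∀ i ∈ alive t, i ∉ alive (par A t) → ∀ a ∈ A t, η i a = 0) ∧
      (∀ t, ∀ p ∈ insert t (A t), ∀ q ∈ insert t (A t), 0 < d p q →
        ∃ i ∈ alive t, d p q / 12 ≤ |η i p - η i q|) := by
  obtain ⟨J, η, h1, h2, h3, h4⟩ := (toBags hA hS).monitors (isDist hS)
  refine ⟨J, η, h1, h2, ?_, h4⟩
  intro t i hi hn
  refine h3 t i hi ?_
  intro s hs
  have hs' : parO A t = some s := hs
  rw [parO_some] at hs'
  rw [← hs'.2]
  exact hn

/-- **Monitors in slot form for the elimination form** (the input of P3): `L = LL k` slots. -/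
theorem slots_elim (hA : IsElim k A) (hS : IsSep A d) :
    ∃ η : Fin n → Fin (Bags.LL k) → Fin n → ℝ,
      (∀ t j p q, |η t j p - η t j q| ≤ d p q) ∧
      (∀ t j, η t j = η (par A t) j ∨ ∀ a ∈ A t, η t j a = 0) ∧
      (∀ t, ∀ p ∈ insert t (A t), ∀ q ∈ insert t (A t), ∃ j, 1 / 12 * d p q ≤ |η t j p - η t j q|) := by
  obtain ⟨η, Rn, h1, h2, h3, h4, h5⟩ := (toBags hA hS).slots (isDist hS)
  refine ⟨η, h1, ?_, ?_⟩
  · intro t j
    by_cases h : (A t).Nonempty
    · by_cases hj : j ∈ Rn t
      · exact Or.inr (h4 t j hj)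
      · exact Or.inl (h3 t (par A t) (parO_some.2 ⟨h, rfl⟩) j hj)
    · right
      intro a ha
      exact absurd ⟨a, ha⟩ h
  · intro t p hp q hq
    rcases (hS.nonneg p q).eq_or_lt with h | h
    · refine ⟨⟨0, by unfold Bags.LL; positivity⟩, ?_⟩
      rw [← h, mul_zero]
      exact abs_nonneg _
    · obtain ⟨j, hj⟩ := h5 t p hp q hq h
      exact ⟨j, by linarith⟩

end Vale.Agent.P235.H732
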