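import Mathlib

/-!
P235, bounded treewidth (helper11 #9610), section 4: monitors (births, thinning, capture).
Abstract rooted bags: nodes `N` with a linear order, `par : N → Option N` with `par t < t`.
-/

namespace Vale.Agent.P235.H732

open Finset

/-! ### Thinning -/

section Thin

variable {N V : Type*} [LinearOrder N]

/-- `x` is in `S` or is enclosed by two elements of `S` whose `T`-values on `A` differ by `≤ h`. -/
def Wit (T : N → V → ℝ) (h : ℝ) (A : Finset V) (S : Finset N) (x : N) : Prop :=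
  x ∈ S ∨ ∃ l ∈ S, ∃ r ∈ S, l < x ∧ x < r ∧ ∀ a ∈ A, T l a - T r a ≤ h

theorem Wit.comb {T : N → V → ℝ} {h : ℝ} {A : Finset V} {S : Finset N} {U : Set N} {l x r : N}
    (hT : ∀ b ∈ U, ∀ b' ∈ U, b ≤ b' → ∀ a ∈ A, T b' a ≤ T b a)
    (hSU : ∀ b ∈ S, b ∈ U) (hlU : l ∈ U) (hrU : r ∈ U)
    (hlx : l < x) (hxr : x < r) (hd : ∀ a ∈ A, T l a - T r a ≤ h)
    (hl : Wit T h A S l) (hr : Wit T h A S r) : Wit T h A S x := by
  classical
  by_cases hx : x ∈ S
  · exact Or.inl hx
  have L : (∃ l' ∈ S, l' < x ∧ ∀ a ∈ A, T l' a ≤ T l a) ∨ Wit T h A S x := by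
    rcases hl with hl | ⟨c, hc, c', hc', h1, h2, h3⟩
    · exact Or.inl ⟨l, hl, hlx, fun a _ => le_rfl⟩
    · rcases lt_trichotomy c' x with h4 | h4 | h4
      · exact Or.inl ⟨c', hc', h4, fun a ha => hT l hlU c' (hSU _ hc') h2.le a ha⟩
      · exact absurd (h4 ▸ hc') hx
      · exact Or.inr (Or.inr ⟨c, hc, c', hc', h1.trans hlx, h4, h3⟩)
  have R : (∃ r' ∈ S, x < r' ∧ ∀ a ∈ A, T r a ≤ T r' a) ∨ Wit T h A S x := by
    rcases hr with hr | ⟨c, hc, c', hc', h1, h2, h3⟩
    · exact Or.inl ⟨r, hr, hxr, fun a _ => le_rfl⟩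
    · rcases lt_trichotomy c x with h4 | h4 | h4
      · exact Or.inr (Or.inr ⟨c, hc, c', hc', h4, hxr.trans h2, h3⟩)
      · exact absurd (h4 ▸ hc) hx
      · exact Or.inl ⟨c, hc, h4, fun a ha => hT c (hSU _ hc) r hrU h1.le a ha⟩
  rcases L with ⟨l', hl', h1, h2⟩ | L
  · rcases R with ⟨r', hr', h3, h4⟩ | R
    · exact Or.inr ⟨l', hl', r', hr', h1, h3, fun a ha => by
        have := hd a ha; have := h2 a ha; have := h4 a ha; linarith⟩
    · exact R
  · exact L

/-- Pigeonhole: a chain in which every triple has a `Φ`-drop `> h` is short. -/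
theorem card_le_of_drop (Φ : N → ℝ) {h : ℝ} (hh : 0 < h) (m : ℕ) (S : Finset N)
    (hdrop : ∀ x ∈ S, ∀ y ∈ S, ∀ z ∈ S, x < y → y < z → h < Φ x - Φ z)
    (hrange : ∀ x ∈ S, ∀ y ∈ S, Φ x - Φ y ≤ m * h) : S.card ≤ 2 * m + 2 := by
  classical
  by_contra hcon
  push Not at hcon
  have key : ∀ r : ℕ, ∀ (hr : 2 * r < S.card), ∀ h0 : 0 < S.card,
      1 ≤ r → r * h < Φ (S.orderEmbOfFin rfl ⟨0, h0⟩) - Φ (S.orderEmbOfFin rfl ⟨2 * r, hr⟩) := by
    intro r
    induction r with
    | zero => intro _ _ h; omega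
    | succ r ih =>
      intro hr h0 _
      have hstep : h < Φ (S.orderEmbOfFin rfl ⟨2 * r, by omega⟩) -
          Φ (S.orderEmbOfFin rfl ⟨2 * (r + 1), hr⟩) := by
        refine hdrop _ (Finset.orderEmbOfFin_mem _ _ _)
          (S.orderEmbOfFin rfl ⟨2 * r + 1, by omega⟩) (Finset.orderEmbOfFin_mem _ _ _) _
          (Finset.orderEmbOfFin_mem _ _ _) ?_ ?_
        · apply (S.orderEmbOfFin rfl).strictMono
          simp [Fin.lt_def]
        · apply (S.orderEmbOfFin rfl).strictMono
          simp [Fin.lt_def]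
          omega
      rcases Nat.eq_zero_or_pos r with h1 | h1
      · subst h1
        simpa using hstep
      · have h2 := ih (by omega) h0 h1
        push_cast
        linarith
  have h1 := key (m + 1) (by omega) (by omega) (by omega)
  have h2 := hrange _ (Finset.orderEmbOfFin_mem S rfl ⟨0, by omega⟩) _
    (Finset.orderEmbOfFin_mem S rfl ⟨2 * (m + 1), by omega⟩)
  push_cast at h1
  linarith

/-- One thinning: from `S` keep `S'` with at most `6k+2` elements, every element of `S` being
witnessed by `S'`. -/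
theorem exists_thin {T : N → V → ℝ} {h : ℝ} (hh : 0 < h) {A : Finset V} {k : ℕ}
    (hk : A.card ≤ k) : ∀ (S : Finset N),
    (∀ b ∈ S, ∀ b' ∈ S, b ≤ b' → ∀ a ∈ A, T b' a ≤ T b a) →
    (∀ b ∈ S, ∀ a ∈ A, 0 ≤ T b a ∧ T b a ≤ 3 * h) →
    ∃ S' ⊆ S, S'.card ≤ 6 * k + 2 ∧ ∀ x ∈ S, Wit T h A S' x := by
  classical
  intro S
  induction' hn : S.card using Nat.strong_induction_on with n ih generalizing S
  intro hT hr
  by_cases hc : S.card ≤ 6 * k + 2
  · exact ⟨S, Subset.rfl, hc, fun x hx => Or.inl hx⟩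
  push Not at hc
  -- a triple with small drop
  have : ∃ l ∈ S, ∃ x ∈ S, ∃ r ∈ S, l < x ∧ x < r ∧ ∀ a ∈ A, T l a - T r a ≤ h := by
    by_contra hno
    push Not at hno
    have h1 : S.card ≤ 2 * (3 * k) + 2 := by
      refine card_le_of_drop (fun b => ∑ a ∈ A, T b a) hh (3 * k) S ?_ ?_
      · intro x hx y hy z hz hxy hyz
        obtain ⟨a, ha, h2⟩ := hno x hx y hy z hz hxy hyz
        have h3 : ∑ a ∈ A, T x a - ∑ a ∈ A, T z a = ∑ a ∈ A, (T x a - T z a) := by
          rw [Finset.sum_sub_distrib]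
        rw [h3]
        refine lt_of_lt_of_le h2 (Finset.single_le_sum (f := fun a => T x a - T z a) ?_ ha)
        intro b hb
        have := hT x hx z hz (hxy.trans hyz).le b hb
        linarith
      · intro x hx y hy
        have h3 : ∑ a ∈ A, T x a - ∑ a ∈ A, T y a = ∑ a ∈ A, (T x a - T y a) := by
          rw [Finset.sum_sub_distrib]
        rw [h3]
        have h4 : ∑ a ∈ A, (T x a - T y a) ≤ ∑ _a ∈ A, 3 * h := by
          apply Finset.sum_le_sum
          intro a ha
          have h5 := (hr x hx a ha).2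
          have h6 := (hr y hy a ha).1
          linarith
        rw [Finset.sum_const, nsmul_eq_mul] at h4
        have h7 : (A.card : ℝ) ≤ k := by exact_mod_cast hk
        have h8 : (A.card : ℝ) * (3 * h) ≤ k * (3 * h) := by
          apply mul_le_mul_of_nonneg_right h7; linarith
        push_cast
        linarith
    omega
  obtain ⟨l, hl, x, hx, r, hr', hlx, hxr, hd⟩ := this
  obtain ⟨S', hS', hcard, hW⟩ := ih (S.erase x).card (by
      rw [← hn]; exact Finset.card_erase_lt_of_mem hx) (S.erase x) rfl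
    (fun b hb b' hb' => hT b (Finset.mem_of_mem_erase hb) b' (Finset.mem_of_mem_erase hb'))
    (fun b hb => hr b (Finset.mem_of_mem_erase hb))
  refine ⟨S', hS'.trans (Finset.erase_subset _ _), hcard, ?_⟩
  intro y hy
  by_cases hyx : y = x
  · subst hyx
    refine Wit.comb (U := {b | b ∈ S}) (fun b hb b' hb' => hT b hb b' hb')
      (fun b hb => Finset.mem_of_mem_erase (hS' hb)) hl hr' hlx hxr hd
      (hW l (Finset.mem_erase.2 ⟨hlx.ne, hl⟩)) (hW r (Finset.mem_erase.2 ⟨hxr.ne', hr'⟩))
  · exact hW y (Finset.mem_erase.2 ⟨hyx, hy⟩)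

end Thin

/-! ### Truncated distances -/

section Cut

variable {V : Type*}

/-- `min(M, d(p, A))`. -/
noncomputable def cutD (d : V → V → ℝ) (A : Finset V) (M : ℝ) (p : V) : ℝ :=
  A.fold min M (fun a => d p a)

theorem le_cutD {d : V → V → ℝ} {A : Finset V} {M c : ℝ} {p : V} :
    c ≤ cutD d A M p ↔ c ≤ M ∧ ∀ a ∈ A, c ≤ d p a :=
  Finset.le_fold_min _

theorem cutD_le {d : V → V → ℝ} {A : Finset V} {M c : ℝ} {p : V} :
    cutD d A M p ≤ c ↔ M ≤ c ∨ ∃ a ∈ A, d p a ≤ c :=
  Finset.fold_min_le _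

theorem cutD_lt {d : V → V → ℝ} {A : Finset V} {M c : ℝ} {p : V} :
    cutD d A M p < c ↔ M < c ∨ ∃ a ∈ A, d p a < c :=
  Finset.fold_min_lt _

theorem cutD_le_M (d : V → V → ℝ) (A : Finset V) (M : ℝ) (p : V) : cutD d A M p ≤ M :=
  (le_cutD.1 le_rfl).1

theorem cutD_le_d {d : V → V → ℝ} {A : Finset V} {M : ℝ} {p a : V} (ha : a ∈ A) :
    cutD d A M p ≤ d p a :=
  (le_cutD.1 le_rfl).2 a ha

theorem cutD_nonneg {d : V → V → ℝ} {A : Finset V} {M : ℝ} {p : V} (hM : 0 ≤ M)
    (hd : ∀ x y, 0 ≤ d x y) : 0 ≤ cutD d A M p :=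
  le_cutD.2 ⟨hM, fun a _ => hd p a⟩

theorem cutD_empty (d : V → V → ℝ) (M : ℝ) (p : V) : cutD d ∅ M p = M := by
  simp [cutD]

/-- Lipschitz. -/
theorem cutD_lip {d : V → V → ℝ} (htri : ∀ x y z, d x z ≤ d x y + d y z)
    (hnn : ∀ x y, 0 ≤ d x y) (A : Finset V) (M : ℝ) (p q : V) :
    cutD d A M p ≤ d p q + cutD d A M q := by
  have h1 : cutD d A M p - d p q ≤ cutD d A M q := by
    rw [le_cutD]
    constructor
    · have := cutD_le_M d A M p
      have := hnn p q
      linarith
    · intro a ha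
      have := cutD_le_d (d := d) (M := M) (p := p) ha
      have := htri p q a
      linarith
  linarith

end Cut

/-! ### Rooted bags -/

/-- `Anc par s t`: `s` is `t` or an ancestor of `t`. -/
inductive Anc {N : Type*} (par : N → Option N) : N → N → Prop
  | refl {t : N} : Anc par t t
  | step {s u t : N} : par t = some u → Anc par s u → Anc par s t

section AncFacts

variable {N : Type*} [LinearOrder N] {par : N → Option N}

theorem Anc.le (hp : ∀ {t s}, par t = some s → s < t) {s t : N} (h : Anc par s t) : s ≤ t := by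
  induction h with
  | refl => exact le_rfl
  | step h1 _ ih => exact ih.trans (hp h1).le

omit [LinearOrder N] in
theorem Anc.trans {a b c : N} (h1 : Anc par a b) (h2 : Anc par b c) : Anc par a c := by
  induction h2 with
  | refl => exact h1
  | step h3 _ ih => exact Anc.step h3 ih

omit [LinearOrder N] in
theorem Anc.of_ne {s t u : N} (h : Anc par s t) (hne : s ≠ t) (hu : par t = some u) :
    Anc par s u := by
  cases h with
  | refl => exact absurd rfl hne
  | step h1 h2 => rw [h1] at hu; cases hu; exact h2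

theorem Anc.comparable (hp : ∀ {t s}, par t = some s → s < t) {a b t : N}
    (ha : Anc par a t) (hb : Anc par b t) (hab : a ≤ b) : Anc par a b := by
  induction hb with
  | refl => exact ha
  | step h1 h2 ih =>
    refine ih (ha.of_ne ?_ h1)
    rintro rfl
    have h3 := h2.le hp
    have h4 := hp h1
    exact absurd (hab.trans h3) (not_le.2 h4)

end AncFacts

/-- Rooted bags with adhesions (elimination form), and separation of `d` along root paths. -/
structure Bags (N V : Type*) [LinearOrder N] (d : V → V → ℝ) (k : ℕ) where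
  par : N → Option N
  par_lt : ∀ {t s}, par t = some s → s < t
  A : N → Finset V
  B : N → Finset V
  A_sub : ∀ t, A t ⊆ B t
  A_par : ∀ {t s}, par t = some s → A t ⊆ B s
  A_root : ∀ {t}, par t = none → A t = ∅
  cardB : ∀ t, (B t).card ≤ k + 1
  cardA : ∀ t, (A t).card ≤ k
  sep : ∀ {b s t}, Anc par b s → b ≠ s → Anc par s t →
    ∀ p ∈ B t, ∀ q ∈ B b, ∃ a ∈ A s, d p a + d a q ≤ d p q

namespace Bags

variable {N V : Type*} [LinearOrder N] {d : V → V → ℝ} {k : ℕ} (D : Bags N V d k)

/-- The unit `R/12` of the scale `R = 2^j`. -/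
noncomputable def hh (j : ℤ) : ℝ := (2 : ℝ) ^ j / 12

theorem hh_pos (j : ℤ) : 0 < hh j := by unfold hh; positivity

/-- `T_b(p) = min(3h, d(p, A_b))`. -/
noncomputable def T (j : ℤ) (b : N) (p : V) : ℝ := cutD d (D.A b) (3 * hh j) p

/-- Active scales at `t`. -/
noncomputable def Sc (t : N) : Finset ℤ :=
  (D.B t ×ˢ D.B t).biUnion fun pq =>
    Finset.Icc (Int.log 2 (d pq.1 pq.2) - 2) (Int.log 2 (d pq.1 pq.2) + 1)

theorem card_Sc (t : N) : (D.Sc t).card ≤ 4 * (k + 1) ^ 2 := by
  unfold Sc
  refine (Finset.card_biUnion_le_card_mul _ _ 4 ?_).trans ?_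
  · intro pq _
    rw [Int.card_Icc]
    omega
  · rw [Finset.card_product]
    have h := D.cardB t
    nlinarith [Nat.mul_le_mul h h]

theorem mem_Sc {t : N} {p q : V} (hp : p ∈ D.B t) (hq : q ∈ D.B t) {j : ℤ}
    (h1 : (2 : ℝ) ^ j / 2 ≤ d p q) (h2 : d p q ≤ 4 * 2 ^ j) : j ∈ D.Sc t := by
  unfold Sc
  rw [Finset.mem_biUnion]
  refine ⟨(p, q), Finset.mem_product.2 ⟨hp, hq⟩, ?_⟩
  have h0 : (0 : ℝ) < 2 ^ j := by positivity
  have hd : 0 < d p q := by linarith
  rw [Finset.mem_Icc]
  constructor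
  · have h3 : d p q < ((2 : ℕ) : ℝ) ^ (j + 3) := by
      rw [zpow_add₀ (by norm_num)]
      norm_num
      linarith
    have h4 := (Int.lt_zpow_iff_log_lt (by norm_num) hd).1 h3
    simp only
    omega
  · have h3 : ((2 : ℕ) : ℝ) ^ (j - 1) ≤ d p q := by
      rw [zpow_sub₀ (by norm_num)]
      norm_num
      linarith
    have h4 := (Int.zpow_le_iff_le_log (by norm_num) hd).1 h3
    simp only
    omega

open Classical in
/-- A choice of a thinned set. -/
noncomputable def thinSel (T : N → V → ℝ) (h : ℝ) (A : Finset V) (k : ℕ) (S : Finset N) :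
    Finset N :=
  if H : ∃ S' ⊆ S, S'.card ≤ 6 * k + 2 ∧ ∀ x ∈ S, Wit T h A S' x then H.choose else ∅

theorem thinSel_spec {T : N → V → ℝ} {h : ℝ} {A : Finset V} {k : ℕ} {S : Finset N}
    (H : ∃ S' ⊆ S, S'.card ≤ 6 * k + 2 ∧ ∀ x ∈ S, Wit T h A S' x) :
    thinSel T h A k S ⊆ S ∧ (thinSel T h A k S).card ≤ 6 * k + 2 ∧
      ∀ x ∈ S, Wit T h A (thinSel T h A k S) x := by
  unfold thinSel
  rw [dif_pos H]
  exact H.choose_spec

theorem thinSel_sub {T : N → V → ℝ} {h : ℝ} {A : Finset V} {k : ℕ} {S : Finset N} :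
    thinSel T h A k S ⊆ S := by
  unfold thinSel
  split_ifs with H
  · exact H.choose_spec.1
  · exact Finset.empty_subset _

theorem card_thinSel {T : N → V → ℝ} {h : ℝ} {A : Finset V} {k : ℕ} {S : Finset N} :
    (thinSel T h A k S).card ≤ 6 * k + 2 := by
  unfold thinSel
  split_ifs with H
  · exact H.choose_spec.2.1
  · simp

variable [WellFoundedLT N]

open Classical in
/-- Alive births of scale `j` at the node `t`. -/
noncomputable def alive : N → ℤ → Finset N :=
  WellFounded.fix (wellFounded_lt : WellFounded ((· < ·) : N → N → Prop)) fun t rec j =>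
    if j ∈ D.Sc t then
      insert t (match h : D.par t with
        | none => ∅
        | some s => thinSel (D.T j) (hh j) (D.A t) k (rec s (D.par_lt h) j))
    else ∅

theorem alive_of_notMem {t : N} {j : ℤ} (h : j ∉ D.Sc t) : D.alive t j = ∅ := by
  rw [alive, WellFounded.fix_eq, if_neg h]

theorem alive_root {t : N} {j : ℤ} (h : j ∈ D.Sc t) (hp : D.par t = none) :
    D.alive t j = {t} := by
  rw [alive, WellFounded.fix_eq, if_pos h]
  split
  · simp
  · simp_all

theorem alive_step {t s : N} {j : ℤ} (h : j ∈ D.Sc t) (hp : D.par t = some s) :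
    D.alive t j = insert t (thinSel (D.T j) (hh j) (D.A t) k (D.alive s j)) := by
  rw [alive, WellFounded.fix_eq, if_pos h]
  split
  · simp_all
  · next s' hs' =>
    rw [hp] at hs'
    cases hs'
    rfl

/-- Distance hypotheses. -/
structure IsDist (d : V → V → ℝ) : Prop where
  self : ∀ x, d x x = 0
  symm : ∀ x y, d x y = d y x
  tri : ∀ x y z, d x z ≤ d x y + d y z

theorem IsDist.nonneg {d : V → V → ℝ} (hd : IsDist d) (x y : V) : 0 ≤ d x y := by
  have h1 := hd.tri x y x
  rw [hd.self, hd.symm y x] at h1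
  linarith

section Mono

variable {D}

omit [WellFoundedLT N]

theorem T_nonneg (hd : IsDist d) (j : ℤ) (b : N) (p : V) : 0 ≤ D.T j b p :=
  cutD_nonneg (by have := hh_pos j; linarith) hd.nonneg

theorem T_le (j : ℤ) (b : N) (p : V) : D.T j b p ≤ 3 * hh j := cutD_le_M _ _ _ _

theorem T_anti (hd : IsDist d) (j : ℤ) {b b' t : N} (h1 : Anc D.par b b') (h2 : Anc D.par b' t)
    {p : V} (hp : p ∈ D.B t) : D.T j b' p ≤ D.T j b p := by
  unfold T
  rw [le_cutD]
  refine ⟨cutD_le_M _ _ _ _, fun a ha => ?_⟩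
  by_cases hb : b = b'
  · subst hb; exact cutD_le_d ha
  · obtain ⟨a', ha', h3⟩ := D.sep h1 hb h2 p hp a (D.A_sub _ ha)
    have h4 := cutD_le_d (d := d) (M := 3 * hh j) (p := p) ha'
    have h5 := hd.nonneg a' a
    linarith

theorem T_ext (hd : IsDist d) (j : ℤ) {l r t : N} {h : ℝ} (hh0 : 0 ≤ h)
    (hr : Anc D.par r t) (hne : r ≠ t)
    (hA : ∀ a ∈ D.A t, D.T j l a - D.T j r a ≤ h) {p : V} (hp : p ∈ D.B t) :
    D.T j l p - D.T j r p ≤ h := by
  rcases (cutD_le (d := d) (A := D.A r) (M := 3 * hh j) (c := D.T j r p) (p := p)).1 le_rfl with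
    h1 | ⟨b, hb, h1⟩
  · have := T_le (D := D) j l p
    linarith
  · obtain ⟨a, ha, h2⟩ := D.sep hr hne Anc.refl p hp b (D.A_sub _ hb)
    have h3 := hA a ha
    have h4 : D.T j r a ≤ d a b := cutD_le_d hb
    have h5 : D.T j l p ≤ d p a + D.T j l a := cutD_lip hd.tri hd.nonneg _ _ _ _
    linarith

end Mono

theorem alive_anc (t : N) (j : ℤ) : ∀ b ∈ D.alive t j, Anc D.par b t := by
  induction' t using WellFoundedLT.induction with t ih
  intro b hb
  by_cases hj : j ∈ D.Sc t
  · cases hp : D.par t with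
    | none =>
      rw [D.alive_root hj hp, Finset.mem_singleton] at hb
      subst hb; exact Anc.refl
    | some s =>
      rw [D.alive_step hj hp, Finset.mem_insert] at hb
      rcases hb with hb | hb
      · subst hb; exact Anc.refl
      · exact Anc.step hp (ih s (D.par_lt hp) b (thinSel_sub hb))
  · rw [D.alive_of_notMem hj] at hb
    simp at hb

theorem card_alive (t : N) (j : ℤ) : (D.alive t j).card ≤ 6 * k + 3 := by
  by_cases hj : j ∈ D.Sc t
  · cases hp : D.par t with
    | none => rw [D.alive_root hj hp]; simp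
    | some s =>
      rw [D.alive_step hj hp]
      exact (Finset.card_insert_le _ _).trans (Nat.succ_le_succ card_thinSel)
  · rw [D.alive_of_notMem hj]; simp

/-- All nodes between `x` and `t` are active. -/
def Per (j : ℤ) (x t : N) : Prop :=
  Anc D.par x t ∧ ∀ u, Anc D.par x u → Anc D.par u t → j ∈ D.Sc u

theorem inv (hd : IsDist d) (j : ℤ) (t : N) : ∀ x, D.Per j x t →
    Wit (D.T j) (hh j) (D.B t) (D.alive t j) x := by
  classical
  induction' t using WellFoundedLT.induction with t ih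
  intro x hx
  have hj : j ∈ D.Sc t := hx.2 t hx.1 Anc.refl
  cases hp : D.par t with
  | none =>
    have hxt : x = t := by
      cases hx.1 with
      | refl => rfl
      | step h1 _ => rw [hp] at h1; cases h1
    rw [D.alive_root hj hp, hxt]
    exact Or.inl (Finset.mem_singleton_self _)
  | some s =>
    rw [D.alive_step hj hp]
    by_cases hxt : x = t
    · rw [hxt]; exact Or.inl (Finset.mem_insert_self _ _)
    have hxs : D.Per j x s :=
      ⟨hx.1.of_ne hxt hp, fun u h1 h2 => hx.2 u h1 (Anc.step hp h2)⟩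
    have h1 := ih s (D.par_lt hp) x hxs
    have hanc := D.alive_anc s j
    have hT : ∀ b ∈ {b | Anc D.par b s}, ∀ b' ∈ {b | Anc D.par b s}, b ≤ b' →
        ∀ a ∈ D.A t, D.T j b' a ≤ D.T j b a := by
      intro b hb b' hb' hbb a ha
      exact T_anti hd j (Anc.comparable D.par_lt hb hb' hbb) hb' (D.A_par hp ha)
    have hsp := thinSel_spec (exists_thin (hh_pos j) (D.cardA t) (D.alive s j)
      (fun b hb b' hb' => hT b (hanc b hb) b' (hanc b' hb'))
      (fun b _ a _ => ⟨T_nonneg hd j b a, T_le j b a⟩))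
    have h2 : Wit (D.T j) (hh j) (D.A t)
        (thinSel (D.T j) (hh j) (D.A t) k (D.alive s j)) x := by
      rcases h1 with h1 | ⟨l, hl, r, hr, h3, h4, h5⟩
      · exact hsp.2.2 x h1
      · exact Wit.comb hT (fun b hb => hanc b (hsp.1 hb)) (hanc l hl) (hanc r hr) h3 h4
          (fun a ha => h5 a (D.A_par hp ha)) (hsp.2.2 l hl) (hsp.2.2 r hr)
    rcases h2 with h2 | ⟨l, hl, r, hr, h3, h4, h5⟩
    · exact Or.inl (Finset.mem_insert_of_mem h2)
    · refine Or.inr ⟨l, Finset.mem_insert_of_mem hl, r, Finset.mem_insert_of_mem hr, h3, h4,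
        fun p hp' => ?_⟩
      have hrs : Anc D.par r s := hanc r (hsp.1 hr)
      have hlt : r < t := (hrs.le D.par_lt).trans_lt (D.par_lt hp)
      exact T_ext hd j (hh_pos j).le (Anc.step hp hrs) hlt.ne h5 hp'

/-! ### Capture -/

/-- The monitor with birth `b`, scale `j`, centre `w`. -/
noncomputable def eta (b : N) (j : ℤ) (w p : V) : ℝ :=
  min (cutD d (D.A b) (5 * hh j) p) (max 0 (5 * hh j - d p w))

omit [WellFoundedLT N] in
theorem eta_lip (hd : IsDist d) (b : N) (j : ℤ) (w p q : V) :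
    |D.eta b j w p - D.eta b j w q| ≤ d p q := by
  have key : ∀ p q, D.eta b j w p - D.eta b j w q ≤ d p q := by
    intro p q
    have h0 := hd.nonneg p q
    have h1 : D.eta b j w p - d p q ≤ D.eta b j w q := by
      unfold eta
      apply le_min
      · have h2 := cutD_lip hd.tri hd.nonneg (D.A b) (5 * hh j) p q
        have h3 := min_le_left (cutD d (D.A b) (5 * hh j) p) (max 0 (5 * hh j - d p w))
        linarith
      · have h3 := min_le_right (cutD d (D.A b) (5 * hh j) p) (max 0 (5 * hh j - d p w))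
        have h4 : max 0 (5 * hh j - d p w) ≤ d p q + max 0 (5 * hh j - d q w) := by
          apply max_le
          · have := le_max_left 0 (5 * hh j - d q w)
            linarith
          · have := le_max_right 0 (5 * hh j - d q w)
            have := hd.tri q p w
            rw [hd.symm q p] at this
            linarith
        linarith
    linarith
  rw [abs_le]
  constructor
  · have := key q p
    rw [hd.symm q p] at this
    linarith
  · exact key p q

omit [WellFoundedLT N] in
theorem eta_zero (hd : IsDist d) (b : N) (j : ℤ) (w : V) {a : V} (ha : a ∈ D.A b) :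
    D.eta b j w a = 0 := by
  unfold eta
  have h1 : cutD d (D.A b) (5 * hh j) a ≤ 0 := by
    have := cutD_le_d (d := d) (M := 5 * hh j) (p := a) ha
    rwa [hd.self] at this
  have h2 : 0 ≤ cutD d (D.A b) (5 * hh j) a :=
    cutD_nonneg (by have := hh_pos j; linarith) hd.nonneg
  have h3 : cutD d (D.A b) (5 * hh j) a = 0 := le_antisymm h1 h2
  rw [h3]
  exact min_eq_left (le_max_left _ _)

omit [WellFoundedLT N] in
theorem cap1 (hd : IsDist d) {b : N} {j : ℤ} {w p q : V} (h1 : 2 * hh j ≤ D.T j b p)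
    (h2 : d p w < 3 * hh j) (h3 : 12 * hh j ≤ d p q) :
    2 * hh j ≤ |D.eta b j w p - D.eta b j w q| := by
  have hpos := hh_pos j
  have hp : 2 * hh j ≤ D.eta b j w p := by
    unfold eta
    apply le_min
    · rw [le_cutD]
      refine ⟨by linarith, fun a ha => ?_⟩
      exact (le_cutD.1 h1).2 a ha
    · exact le_trans (by linarith) (le_max_right _ _)
  have hq : D.eta b j w q = 0 := by
    unfold eta
    have h4 : 9 * hh j ≤ d q w := by
      have := hd.tri p w q
      rw [hd.symm w q] at this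
      linarith
    have h5 : max 0 (5 * hh j - d q w) = 0 := max_eq_left (by linarith)
    rw [h5]
    exact min_eq_right (cutD_nonneg (by linarith) hd.nonneg)
  rw [hq, sub_zero]
  exact hp.trans (le_abs_self _)

theorem up (hd : IsDist d) {j : ℤ} {t : N} {p q : V}
    (h1 : 12 * hh j ≤ d p q) (h2 : d p q < 24 * hh j) (s : N) : D.Per j s t →
    (∀ u, Anc D.par s u → u ≠ s → Anc D.par u t →
      ¬ (3 * hh j ≤ D.T j u p ∨ 3 * hh j ≤ D.T j u q)) →
    ∃ τ, (3 * hh j ≤ D.T j τ p ∨ 3 * hh j ≤ D.T j τ q) ∧ D.Per j τ t ∧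
      ∀ u, Anc D.par τ u → u ≠ τ → Anc D.par u t →
        ¬ (3 * hh j ≤ D.T j u p ∨ 3 * hh j ≤ D.T j u q) := by
  induction' s using WellFoundedLT.induction with s ih
  intro hper hno
  by_cases hQ : 3 * hh j ≤ D.T j s p ∨ 3 * hh j ≤ D.T j s q
  · exact ⟨s, hQ, hper, hno⟩
  cases hp : D.par s with
  | none =>
    exfalso
    apply hQ
    left
    unfold T
    rw [D.A_root hp, cutD_empty]
  | some s' =>
    push Not at hQ
    have hpos := hh_pos j
    have ha : ∃ a ∈ D.A s, d p a < 3 * hh j := by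
      rcases cutD_lt.1 hQ.1 with h | h
      · exact absurd h (lt_irrefl _)
      · exact h
    have hb : ∃ b ∈ D.A s, d q b < 3 * hh j := by
      rcases cutD_lt.1 hQ.2 with h | h
      · exact absurd h (lt_irrefl _)
      · exact h
    obtain ⟨a, ha, hpa⟩ := ha
    obtain ⟨b, hb, hqb⟩ := hb
    have hdown : ∀ u, Anc D.par s' u → u ≠ s' → Anc D.par u t → Anc D.par s u := by
      intro u h3 h4 h5
      rcases le_total u s with h6 | h6
      · have h7 := Anc.comparable D.par_lt h5 hper.1 h6
        by_cases h8 : u = s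
        · subst h8; exact Anc.refl
        · have h9 := h7.of_ne h8 hp
          exact absurd (le_antisymm (h9.le D.par_lt) (h3.le D.par_lt)) h4
      · exact Anc.comparable D.par_lt hper.1 h5 h6
    refine ih s' (D.par_lt hp) ⟨(Anc.step hp Anc.refl).trans hper.1, ?_⟩ ?_
    · intro u h3 h4
      by_cases h5 : u = s'
      · subst h5
        have h2j : (2 : ℝ) ^ j = 12 * hh j := by unfold hh; ring
        refine D.mem_Sc (D.A_par hp ha) (D.A_par hp hb) ?_ ?_
        · rw [h2j]
          have h6 := hd.tri p a q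
          have h7 := hd.tri a b q
          rw [hd.symm b q] at h7
          linarith
        · rw [h2j]
          have h6 := hd.tri a p b
          have h7 := hd.tri p q b
          rw [hd.symm a p] at h6
          linarith
      · exact hper.2 u (hdown u h3 h5 h4) h4
    · intro u h3 h4 h5
      have h6 := hdown u h3 h4 h5
      by_cases h7 : u = s
      · subst h7
        push Not
        exact hQ
      · exact hno u h6 h7 h5

theorem capture_aux (hd : IsDist d) {j : ℤ} {t : N} {p q : V} (hp : p ∈ D.B t)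
    (h1 : 12 * hh j ≤ d p q) {τ : N} (hτ : 3 * hh j ≤ D.T j τ p) (hper : D.Per j τ t)
    (hno : ∀ u, Anc D.par τ u → u ≠ τ → Anc D.par u t →
        ¬ (3 * hh j ≤ D.T j u p ∨ 3 * hh j ≤ D.T j u q)) :
    ∃ b ∈ D.alive t j, ∃ w ∈ D.B b, 2 * hh j ≤ |D.eta b j w p - D.eta b j w q| := by
  have hpos := hh_pos j
  rcases D.inv hd j t τ hper with h2 | ⟨l, hl, r, hr, h3, h4, h5⟩
  · refine ⟨τ, h2, ?_⟩
    by_cases hτt : τ = t
    · subst hτt
      refine ⟨p, hp, D.cap1 hd (by linarith) (by rw [hd.self]; linarith) h1⟩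
    · -- the child of `τ` on the path to `t`
      have : ∃ u, D.par u = some τ ∧ Anc D.par u t := by
        have h6 := hper.1
        clear hno hper h2 hp
        induction h6 with
        | refl => exact absurd rfl hτt
        | @step u t h7 h8 ih =>
          by_cases h9 : τ = u
          · subst h9; exact ⟨t, h7, Anc.refl⟩
          · obtain ⟨v, hv, hvu⟩ := ih h9
            exact ⟨v, hv, Anc.step h7 hvu⟩
      obtain ⟨u, hu, hut⟩ := this
      have h6 := hno u (Anc.step hu Anc.refl) (D.par_lt hu).ne' hut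
      push Not at h6
      rcases cutD_lt.1 h6.1 with h | ⟨w, hw, hpw⟩
      · exact absurd h (lt_irrefl _)
      · exact ⟨w, D.A_par hu hw, D.cap1 hd (by linarith) hpw h1⟩
  · have hlt := D.alive_anc t j l hl
    have hrt := D.alive_anc t j r hr
    have hlτ : Anc D.par l τ := Anc.comparable D.par_lt hlt hper.1 h3.le
    have hτr : Anc D.par τ r := Anc.comparable D.par_lt hper.1 hrt h4.le
    have h6 := hno r hτr h4.ne' hrt
    push Not at h6
    rcases cutD_lt.1 h6.1 with h | ⟨w, hw, hpw⟩
    · exact absurd h (lt_irrefl _)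
    · have h7 := h5 p hp
      have h8 : D.T j τ p ≤ D.T j l p := T_anti hd j hlτ hper.1 hp
      exact ⟨r, hr, w, D.A_sub _ hw, D.cap1 hd (by linarith) hpw h1⟩

theorem capture (hd : IsDist d) {t : N} {p q : V} (hp : p ∈ D.B t) (hq : q ∈ D.B t)
    (hpq : 0 < d p q) :
    ∃ j ∈ D.Sc t, ∃ b ∈ D.alive t j, ∃ w ∈ D.B b,
      d p q / 12 ≤ |D.eta b j w p - D.eta b j w q| := by
  set j : ℤ := Int.log 2 (d p q) with hj
  have h2j : (2 : ℝ) ^ j = 12 * hh j := by unfold hh; ring
  have h1 : (2 : ℝ) ^ j ≤ d p q := by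
    have := Int.zpow_log_le_self (b := 2) (by norm_num) hpq
    exact_mod_cast this
  have h2 : d p q < 2 * (2 : ℝ) ^ j := by
    have := Int.lt_zpow_succ_log_self (b := 2) (by norm_num) (d p q)
    rw [zpow_add₀ (by norm_num)] at this
    push_cast at this
    linarith
  have hpos := hh_pos j
  have hjS : j ∈ D.Sc t := D.mem_Sc hp hq (by linarith) (by linarith)
  rw [h2j] at h1 h2
  have hper : D.Per j t t := ⟨Anc.refl, fun u h3 h4 => by
    have h5 := le_antisymm (h4.le D.par_lt) (h3.le D.par_lt)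
    subst h5; exact hjS⟩
  obtain ⟨τ, hτ, hτt, hno⟩ := D.up hd (p := p) (q := q) h1 (by linarith) t hper
    (fun u h3 h4 h5 => absurd (le_antisymm (h5.le D.par_lt) (h3.le D.par_lt)) h4)
  refine ⟨j, hjS, ?_⟩
  rcases hτ with hτ | hτ
  · obtain ⟨b, hb, w, hw, h⟩ := D.capture_aux hd hp h1 hτ hτt hno
    exact ⟨b, hb, w, hw, by linarith⟩
  · obtain ⟨b, hb, w, hw, h⟩ := D.capture_aux hd (p := q) (q := p) hq
      (by rw [hd.symm]; exact h1) hτ hτt
      (fun u h3 h4 h5 h6 => hno u h3 h4 h5 h6.symm)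
    rw [abs_sub_comm] at h
    exact ⟨b, hb, w, hw, by linarith⟩

/-! ### The set form -/

open Classical in
/-- Monitors alive at `t`: triples (birth, scale, centre). -/
noncomputable def J (t : N) : Finset (N × ℤ × V) :=
  (D.Sc t).biUnion fun j => (D.alive t j).biUnion fun b => (D.B b).image fun w => (b, j, w)

theorem mem_J {t b : N} {j : ℤ} {w : V} :
    (b, j, w) ∈ D.J t ↔ j ∈ D.Sc t ∧ b ∈ D.alive t j ∧ w ∈ D.B b := by
  classical
  unfold J
  simp only [Finset.mem_biUnion, Finset.mem_image, Prod.mk.injEq]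
  constructor
  · rintro ⟨j', h1, b', h2, w', h3, rfl, rfl, rfl⟩
    exact ⟨h1, h2, h3⟩
  · rintro ⟨h1, h2, h3⟩
    exact ⟨j, h1, b, h2, w, h3, rfl, rfl, rfl⟩

/-- The bound for the number of alive monitors. -/
def LL (k : ℕ) : ℕ := 4 * (k + 1) ^ 2 * ((6 * k + 3) * (k + 1))

theorem card_J (t : N) : (D.J t).card ≤ LL k := by
  classical
  unfold J LL
  refine (Finset.card_biUnion_le_card_mul _ _ ((6 * k + 3) * (k + 1)) ?_).trans
    (Nat.mul_le_mul_right _ (D.card_Sc t))
  intro j _
  refine (Finset.card_biUnion_le_card_mul _ _ (k + 1) ?_).trans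
    (Nat.mul_le_mul_right _ (D.card_alive t j))
  intro b _
  exact Finset.card_image_le.trans (D.cardB b)

/-- A monitor which is new at `t` is born at `t`. -/
theorem J_new {t b : N} {j : ℤ} {w : V} (h : (b, j, w) ∈ D.J t)
    (hnew : ∀ s, D.par t = some s → (b, j, w) ∉ D.J s) : b = t := by
  rw [mem_J] at h
  obtain ⟨h1, h2, h3⟩ := h
  cases hp : D.par t with
  | none =>
    rw [D.alive_root h1 hp, Finset.mem_singleton] at h2
    exact h2
  | some s =>
    rw [D.alive_step h1 hp, Finset.mem_insert] at h2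
    rcases h2 with h2 | h2
    · exact h2
    · exfalso
      have h4 : b ∈ D.alive s j := thinSel_sub h2
      apply hnew s hp
      rw [mem_J]
      refine ⟨?_, h4, h3⟩
      by_contra h5
      rw [D.alive_of_notMem h5] at h4
      simp at h4

/-- **Monitors, set form.** -/
theorem monitors (hd : IsDist d) :
    ∃ (J : N → Finset (N × ℤ × V)) (η : N × ℤ × V → V → ℝ),
      (∀ t, (J t).card ≤ LL k) ∧
      (∀ i p q, |η i p - η i q| ≤ d p q) ∧
      (∀ t, ∀ i ∈ J t, (∀ s, D.par t = some s → i ∉ J s) → ∀ a ∈ D.A t, η i a = 0) ∧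
      (∀ t, ∀ p ∈ D.B t, ∀ q ∈ D.B t, 0 < d p q →
        ∃ i ∈ J t, d p q / 12 ≤ |η i p - η i q|) := by
  refine ⟨D.J, fun i => D.eta i.1 i.2.1 i.2.2, D.card_J,
    fun i p q => D.eta_lip hd _ _ _ _ _, ?_, ?_⟩
  · rintro t ⟨b, j, w⟩ hi hnew a ha
    have hb := D.J_new hi hnew
    subst hb
    exact D.eta_zero hd _ _ _ ha
  · intro t p hp q hq hpq
    obtain ⟨j, h1, b, h2, w, h3, h4⟩ := D.capture hd hp hq hpq
    exact ⟨(b, j, w), D.mem_J.2 ⟨h1, h2, h3⟩, h4⟩

end Bags

/-! ### Slots -/

theorem exists_ext {α : Type*} {L : ℕ} (f : α → Fin L) (Y : Finset α)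
    (hf : Set.InjOn f Y) [DecidableEq α] (Z : Finset α) : Disjoint Z Y → (Y ∪ Z).card ≤ L →
    ∃ g : α → Fin L, Set.InjOn g (Y ∪ Z : Finset α) ∧ ∀ y ∈ Y, g y = f y := by
  induction Z using Finset.induction_on with
  | empty =>
    intro _ _
    exact ⟨f, by simpa using hf, fun _ _ => rfl⟩
  | insert z Z hz ih =>
    intro hdis hcard
    rw [Finset.disjoint_insert_left] at hdis
    have hzn : z ∉ Y ∪ Z := by
      rw [Finset.mem_union]; push Not; exact ⟨hdis.1, hz⟩
    have hcard' : (Y ∪ Z).card < L := by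
      have h1 : Y ∪ insert z Z = insert z (Y ∪ Z) := by
        ext x; simp only [Finset.mem_union, Finset.mem_insert]; tauto
      rw [h1, Finset.card_insert_of_notMem hzn] at hcard
      omega
    obtain ⟨g, hg, hgf⟩ := ih hdis.2 hcard'.le
    have : ∃ c : Fin L, c ∉ (Y ∪ Z).image g := by
      by_contra hcon
      push Not at hcon
      have h2 : (Finset.univ : Finset (Fin L)) ⊆ (Y ∪ Z).image g := fun c _ => hcon c
      have h3 := Finset.card_le_card h2
      have h4 : ((Y ∪ Z).image g).card ≤ (Y ∪ Z).card := Finset.card_image_le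
      rw [Finset.card_univ, Fintype.card_fin] at h3
      omega
    obtain ⟨c, hc⟩ := this
    refine ⟨Function.update g z c, ?_, ?_⟩
    · intro x hx y hy hxy
      have hx' : x = z ∨ x ∈ Y ∪ Z := by
        simp only [Finset.coe_union, Finset.coe_insert, Set.mem_union, Set.mem_insert_iff,
          Finset.mem_coe] at hx
        rw [Finset.mem_union]; tauto
      have hy' : y = z ∨ y ∈ Y ∪ Z := by
        simp only [Finset.coe_union, Finset.coe_insert, Set.mem_union, Set.mem_insert_iff,
          Finset.mem_coe] at hy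
        rw [Finset.mem_union]; tauto
      by_cases hxz : x = z
      · by_cases hyz : y = z
        · rw [hxz, hyz]
        · exfalso
          rw [hxz, Function.update_self, Function.update_of_ne hyz] at hxy
          exact hc (hxy ▸ Finset.mem_image_of_mem g (hy'.resolve_left hyz))
      · by_cases hyz : y = z
        · exfalso
          rw [hyz, Function.update_self, Function.update_of_ne hxz] at hxy
          exact hc (hxy ▸ Finset.mem_image_of_mem g (hx'.resolve_left hxz))
        · rw [Function.update_of_ne hxz, Function.update_of_ne hyz] at hxy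
          exact hg (hx'.resolve_left hxz) (hy'.resolve_left hyz) hxy
    · intro y hy
      have hyz : y ≠ z := by rintro rfl; exact hdis.1 hy
      rw [Function.update_of_ne hyz]
      exact hgf y hy

theorem exists_ext' {α : Type*} {L : ℕ} (f : α → Fin L) (X Y : Finset α)
    (hf : Set.InjOn f Y) (hYX : Y ⊆ X) (hX : X.card ≤ L) :
    ∃ g : α → Fin L, Set.InjOn g X ∧ ∀ y ∈ Y, g y = f y := by
  classical
  obtain ⟨g, hg, hgf⟩ := exists_ext f Y hf (X \ Y) Finset.sdiff_disjoint
    (by rw [Finset.union_sdiff_of_subset hYX]; exact hX)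
  rw [Finset.union_sdiff_of_subset hYX] at hg
  exact ⟨g, hg, hgf⟩

/-- Persistent slots for a family of finite sets along a rooted forest. -/
theorem exists_slots {N M : Type*} [LinearOrder N] [WellFoundedLT N] {par : N → Option N}
    (hpar : ∀ {t s}, par t = some s → s < t) (J : N → Finset M) {L : ℕ} (hL : 0 < L)
    (hJ : ∀ t, (J t).card ≤ L) :
    ∃ σ : N → M → Fin L, (∀ t, Set.InjOn (σ t) (J t)) ∧
      ∀ t s, par t = some s → ∀ i ∈ J t, i ∈ J s → σ t i = σ s i := by
  classical
  have hex : ∀ (t : N) (prev : Option (M → Fin L)) (Y : Finset M), Y ⊆ J t →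
      (∀ f, prev = some f → Set.InjOn f Y) →
      ∃ g : M → Fin L, Set.InjOn g (J t) ∧ ∀ f, prev = some f → ∀ y ∈ Y, g y = f y := by
    intro t prev Y hY hf
    cases prev with
    | none =>
      obtain ⟨g, hg, _⟩ := exists_ext' (fun _ => (⟨0, hL⟩ : Fin L)) (J t) ∅ (by simp)
        (Finset.empty_subset _) (hJ t)
      exact ⟨g, hg, fun f h => by cases h⟩
    | some f =>
      obtain ⟨g, hg, hgf⟩ := exists_ext' f (J t) Y (hf f rfl) hY (hJ t)
      exact ⟨g, hg, fun f' h => by cases h; exact hgf⟩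
  -- recursion
  let σ : N → M → Fin L :=
    WellFounded.fix (wellFounded_lt : WellFounded ((· < ·) : N → N → Prop)) fun t rec =>
      match h : par t with
      | none => if H : ∃ g : M → Fin L, Set.InjOn g (J t) then H.choose else fun _ => ⟨0, hL⟩
      | some s =>
        if H : ∃ g : M → Fin L, Set.InjOn g (J t) ∧
            ∀ y ∈ J t ∩ J s, g y = rec s (hpar h) y then H.choose else fun _ => ⟨0, hL⟩
  have hσ0 : ∀ t, par t = none → Set.InjOn (σ t) (J t) := by
    intro t ht
    have H : ∃ g : M → Fin L, Set.InjOn g (J t) := by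
      obtain ⟨g, hg, _⟩ := hex t none ∅ (Finset.empty_subset _) (fun f h => by cases h)
      exact ⟨g, hg⟩
    have : σ t = H.choose := by
      simp only [σ]
      rw [WellFounded.fix_eq]
      split
      · rw [dif_pos H]
      · simp_all
    rw [this]
    exact H.choose_spec
  have hσ1 : ∀ t, Set.InjOn (σ t) (J t) ∧
      ∀ s, par t = some s → ∀ i ∈ J t, i ∈ J s → σ t i = σ s i := by
    intro t
    induction' t using WellFoundedLT.induction with t ih
    cases ht : par t with
    | none => exact ⟨hσ0 t ht, fun s h => by cases h⟩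
    | some s =>
      have H : ∃ g : M → Fin L, Set.InjOn g (J t) ∧ ∀ y ∈ J t ∩ J s, g y = σ s y := by
        obtain ⟨g, hg, hg'⟩ := hex t (some (σ s)) (J t ∩ J s) Finset.inter_subset_left
          (fun f h => by
            cases h
            exact (ih s (hpar ht)).1.mono (by
              intro x hx
              exact (Finset.mem_inter.1 hx).2))
        exact ⟨g, hg, hg' _ rfl⟩
      have : σ t = H.choose := by
        have h0 : σ t = _ := WellFounded.fix_eq _ _ t
        rw [h0]
        split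
        · simp_all
        · next s' hs' =>
          rw [ht] at hs'
          cases hs'
          exact dif_pos H
      rw [this]
      refine ⟨H.choose_spec.1, fun s' h i h1 h2 => ?_⟩
      cases h
      exact H.choose_spec.2 i (Finset.mem_inter.2 ⟨h1, h2⟩)
  exact ⟨σ, fun t => (hσ1 t).1, fun t s h => (hσ1 t).2 s h⟩

/-- **Monitors, slot form**: `L` slots; at the node `t` the slots in `Rn t` are renewed (their new
content vanishes on `A_t`), the others keep the content they have at the parent. -/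
theorem Bags.slots {N V : Type*} [LinearOrder N] [WellFoundedLT N] {d : V → V → ℝ} {k : ℕ}
    (D : Bags N V d k) (hd : Bags.IsDist d) :
    ∃ (η : N → Fin (Bags.LL k) → V → ℝ) (Rn : N → Finset (Fin (Bags.LL k))),
      (∀ t i p q, |η t i p - η t i q| ≤ d p q) ∧
      (∀ t, D.par t = none → Rn t = Finset.univ) ∧
      (∀ t s, D.par t = some s → ∀ i, i ∉ Rn t → η t i = η s i) ∧
      (∀ t, ∀ i ∈ Rn t, ∀ a ∈ D.A t, η t i a = 0) ∧
      (∀ t, ∀ p ∈ D.B t, ∀ q ∈ D.B t, 0 < d p q →
        ∃ i, d p q / 12 ≤ |η t i p - η t i q|) := by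
  classical
  obtain ⟨J, η, hJ, hlip, hnew, hcap⟩ := D.monitors hd
  have hL : 0 < Bags.LL k := by unfold Bags.LL; positivity
  obtain ⟨σ, hinj, hσ⟩ := exists_slots (fun {t s} h => D.par_lt h) J hL hJ
  refine ⟨fun t c p => if H : ∃ i ∈ J t, σ t i = c then η H.choose p else 0,
    fun t => match D.par t with
      | none => Finset.univ
      | some s => Finset.univ.filter fun c => ¬ ∃ i ∈ J t, i ∈ J s ∧ σ t i = c,
    ?_, ?_, ?_, ?_, ?_⟩
  · intro t c p q
    by_cases H : ∃ i ∈ J t, σ t i = c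
    · simp only [dif_pos H]; exact hlip _ _ _
    · simp only [dif_neg H]; rw [sub_zero, abs_zero]; exact hd.nonneg _ _
  · intro t ht
    simp only [ht]
  · intro t s ht c hc
    simp only [ht, Finset.mem_filter, Finset.mem_univ, true_and, not_not] at hc
    obtain ⟨i, h1, h2, h3⟩ := hc
    have H1 : ∃ i ∈ J t, σ t i = c := ⟨i, h1, h3⟩
    have H2 : ∃ i ∈ J s, σ s i = c := ⟨i, h2, by rw [← hσ t s ht i h1 h2]; exact h3⟩
    funext p
    simp only [dif_pos H1, dif_pos H2]
    have e1 : H1.choose = i := hinj t H1.choose_spec.1 h1 (H1.choose_spec.2.trans h3.symm)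
    have e2 : H2.choose = i := hinj s H2.choose_spec.1 h2
      (H2.choose_spec.2.trans (by rw [← hσ t s ht i h1 h2]; exact h3.symm))
    rw [e1, e2]
  · intro t c hc a ha
    by_cases H : ∃ i ∈ J t, σ t i = c
    · simp only [dif_pos H]
      refine hnew t _ H.choose_spec.1 ?_ a ha
      intro s hs hmem
      simp only [hs, Finset.mem_filter, Finset.mem_univ, true_and] at hc
      exact hc ⟨_, H.choose_spec.1, hmem, H.choose_spec.2⟩
    · simp only [dif_neg H]
  · intro t p hp q hq hpq
    obtain ⟨i, hi, h⟩ := hcap t p hp q hq hpq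
    refine ⟨σ t i, ?_⟩
    have H : ∃ i' ∈ J t, σ t i' = σ t i := ⟨i, hi, rfl⟩
    simp only [dif_pos H]
    have e : H.choose = i := hinj t H.choose_spec.1 hi H.choose_spec.2
    rw [e]
    exact h

end Vale.Agent.P235.H732

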